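import Mathlib

/-!
# P183: representable finite lattices, definitions
-/

set_option autoImplicit false

namespace Vale.Agent.P183

universe u v

/-- compatibility of an equivalence relation with a finite list of finitary operations -/
def Compat {A : Type} {m : ℕ} (ar : Fin m → ℕ) (op : ∀ i : Fin m, (Fin (ar i) → A) → A)
    (θ : Setoid A) : Prop :=
  ∀ (i : Fin m) (x y : Fin (ar i) → A), (∀ k, θ (x k) (y k)) → θ (op i x) (op i y)

/-- `L` is isomorphic to the congruence lattice of a finite algebra: a nonempty finite set `A` with
a finite list of total operations of finite arity. -/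
def Representable (L : Type u) [LE L] : Prop :=
  ∃ (A : Type) (_ : Finite A) (_ : Nonempty A) (m : ℕ) (ar : Fin m → ℕ)
    (op : ∀ i : Fin m, (Fin (ar i) → A) → A), Nonempty (L ≃o {θ : Setoid A // Compat ar op θ})

/-- compatible families of equivalence relations (congruences) of a finite many-sorted algebra with
sorts `A p` and operations `f j` : from a finite product of sorts to a sort -/
def SCompat {P : Type} (A : P → Type) {m : ℕ} (ar : Fin m → ℕ) (src : ∀ i, Fin (ar i) → P)
    (tgt : Fin m → P) (op : ∀ i : Fin m, (∀ k, A (src i k)) → A (tgt i))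
    (θ : ∀ p, Setoid (A p)) : Prop :=
  ∀ (i : Fin m) (x y : ∀ k, A (src i k)), (∀ k, θ (src i k) (x k) (y k)) →
    θ (tgt i) (op i x) (op i y)

end Vale.Agent.P183
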