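import Vale.Agent.P183.Defs

set_option autoImplicit false

namespace Vale.Agent.P183

universe u v

theorem Representable.congr {L : Type u} {M : Type v} [LE L] [LE M] (h : L ≃o M)
    (hM : Representable M) : Representable L := by
  obtain ⟨A, h1, h2, m, ar, op, ⟨e⟩⟩ := hM
  exact ⟨A, h1, h2, m, ar, op, ⟨h.trans e⟩⟩

/-- finitely many unary operations, indexed by any finite type -/
theorem unary (B : Type) [Finite B] [Nonempty B] (K : Type) [Finite K] (g : K → B → B) :
    Representable {ρ : Setoid B // ∀ k x y, ρ x y → ρ (g k x) (g k y)} := by
  obtain ⟨m, ⟨e⟩⟩ := Finite.exists_equiv_fin K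
  refine ⟨B, inferInstance, inferInstance, m, fun _ => 1, fun i x => g (e.symm i) (x 0), ⟨?_⟩⟩
  have h : ∀ ρ : Setoid B, (∀ k x y, ρ x y → ρ (g k x) (g k y)) ↔
      Compat (fun _ : Fin m => 1) (fun i x => g (e.symm i) (x 0)) ρ := by
    intro ρ
    constructor
    · intro h i x y hxy
      exact h _ _ _ (hxy 0)
    · intro h k x y hxy
      have := h (e k) (fun _ => x) (fun _ => y) (fun _ => hxy)
      simpa using this
  exact { toEquiv := Equiv.subtypeEquivRight h, map_rel_iff' := Iff.rfl }

section Sorted

variable {P : Type} [DecidableEq P] {A : P → Type}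

/-- the product relation -/
def prodRel (θ : ∀ p, Setoid (A p)) : Setoid (∀ p, A p) where
  r x y := ∀ p, θ p (x p) (y p)
  iseqv := ⟨fun x p => (θ p).refl' (x p), fun h p => (θ p).symm' (h p),
    fun h1 h2 p => (θ p).trans' (h1 p) (h2 p)⟩

/-- the components of a relation on the product -/
def compRel (ρ : Setoid (∀ p, A p)) (p : P) : Setoid (A p) where
  r a b := ∀ c : ∀ p, A p, ρ (Function.update c p a) (Function.update c p b)
  iseqv := ⟨fun _ _ => ρ.refl' _, fun h c => ρ.symm' (h c),
    fun h1 h2 c => ρ.trans' (h1 c) (h2 c)⟩

theorem comp_prod [∀ p, Nonempty (A p)] (θ : ∀ p, Setoid (A p)) : compRel (prodRel θ) = θ := by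
  funext p
  ext a b
  constructor
  · intro h
    have h1 := h (fun q => Classical.arbitrary (A q)) p
    simpa using h1
  · intro h c q
    by_cases hq : q = p
    · subst hq
      simpa using h
    · rw [Function.update_of_ne hq, Function.update_of_ne hq]

theorem prod_comp [Finite P] (ρ : Setoid (∀ p, A p))
    (hρ : ∀ (p : P) (c : ∀ p, A p) (x y : ∀ p, A p), ρ x y →
      ρ (Function.update c p (x p)) (Function.update c p (y p))) :
    prodRel (compRel ρ) = ρ := by
  cases nonempty_fintype P
  ext x y
  constructor
  · intro h
    have key : ∀ S : Finset P, ρ x (S.piecewise y x) := by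
      intro S
      induction S using Finset.induction_on with
      | empty =>
        rw [Finset.piecewise_empty]
      | insert a S ha ih =>
        refine ρ.trans' ih ?_
        rw [Finset.piecewise_insert]
        have h1 := h a (S.piecewise y x)
        have h2 : Function.update (S.piecewise y x) a (x a) = S.piecewise y x := by
          rw [Function.update_eq_self_iff, Finset.piecewise_eq_of_notMem _ _ _ ha]
        rw [h2] at h1
        exact h1
    have := key Finset.univ
    rwa [Finset.piecewise_univ] at this
  · intro h p c
    exact hρ p c x y h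

end Sorted

/-- finite many-sorted unary algebras -/
theorem sortedU (P : Type) [Finite P] (A : P → Type) [∀ p, Finite (A p)] [∀ p, Nonempty (A p)]
    (J : Type) [Finite J] (s t : J → P) (f : ∀ j, A (s j) → A (t j)) :
    Representable {θ : ∀ p, Setoid (A p) //
      ∀ j x y, θ (s j) x y → θ (t j) (f j x) (f j y)} := by
  classical
  refine Representable.congr ?_ (unary (∀ p, A p) ((J ⊕ P) × (∀ p, A p)) (fun k x =>
    Sum.elim (fun j => Function.update k.2 (t j) (f j (x (s j))))
      (fun p => Function.update k.2 p (x p)) k.1))
  refine { toFun := fun θ => ⟨prodRel θ.1, ?_⟩, invFun := fun ρ => ⟨compRel ρ.1, ?_⟩,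
           left_inv := ?_, right_inv := ?_, map_rel_iff' := ?_ }
  · rintro ⟨j | p, c⟩ x y h q
    · change θ.1 q (Function.update c (t j) (f j (x (s j))) q)
        (Function.update c (t j) (f j (y (s j))) q)
      by_cases hq : q = t j
      · subst hq
        rw [Function.update_self, Function.update_self]
        exact θ.2 j _ _ (h (s j))
      · rw [Function.update_of_ne hq, Function.update_of_ne hq]
    · change θ.1 q (Function.update c p (x p) q) (Function.update c p (y p) q)
      by_cases hq : q = p
      · subst hq
        rw [Function.update_self, Function.update_self]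
        exact h q
      · rw [Function.update_of_ne hq, Function.update_of_ne hq]
  · intro j x y h c
    have h1 := h (fun q => Classical.arbitrary (A q))
    have h2 := ρ.2 (Sum.inl j, c) _ _ h1
    change ρ.1 (Function.update c (t j) (f j _)) (Function.update c (t j) (f j _)) at h2
    rw [Function.update_self, Function.update_self] at h2
    exact h2
  · intro θ
    exact Subtype.ext (comp_prod θ.1)
  · intro ρ
    exact Subtype.ext (prod_comp ρ.1 fun p c x y h => ρ.2 (Sum.inr p, c) x y h)
  · intro θ θ'
    constructor
    · intro h p a b hab
      have h1 : prodRel θ.1 (Function.update (fun q => Classical.arbitrary (A q)) p a)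
          (Function.update (fun q => Classical.arbitrary (A q)) p b) := by
        intro q
        by_cases hq : q = p
        · subst hq
          rw [Function.update_self, Function.update_self]
          exact hab
        · rw [Function.update_of_ne hq, Function.update_of_ne hq]
      have h2 := h h1 p
      rw [Function.update_self, Function.update_self] at h2
      exact h2
    · intro h x y hxy p
      exact h p (hxy p)

/-- finite many-sorted algebras with operations of arbitrary arity, any finite index type -/
theorem sortedJ (P : Type) [Finite P] (A : P → Type) [∀ p, Finite (A p)] [∀ p, Nonempty (A p)]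
    (I : Type) [Finite I] (ar : I → ℕ) (src : ∀ i, Fin (ar i) → P) (tgt : I → P)
    (op : ∀ i : I, (∀ k, A (src i k)) → A (tgt i)) :
    Representable {θ : ∀ p, Setoid (A p) // ∀ (i : I) (x y : ∀ k, A (src i k)),
      (∀ k, θ (src i k) (x k) (y k)) → θ (tgt i) (op i x) (op i y)} := by
  classical
  refine Representable.congr ?_ (sortedU P A (Σ i : I, Fin (ar i) × (∀ k, A (src i k)))
    (fun j => src j.1 j.2.1) (fun j => tgt j.1)
    (fun j x => op j.1 (Function.update j.2.2 j.2.1 x)))
  have h : ∀ θ : ∀ p, Setoid (A p), (∀ (i : I) (x y : ∀ k, A (src i k)),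
      (∀ k, θ (src i k) (x k) (y k)) → θ (tgt i) (op i x) (op i y)) ↔
      ∀ (j : Σ i : I, Fin (ar i) × (∀ k, A (src i k))) x y, θ (src j.1 j.2.1) x y →
        θ (tgt j.1) (op j.1 (Function.update j.2.2 j.2.1 x))
          (op j.1 (Function.update j.2.2 j.2.1 y)) := by
    intro θ
    constructor
    · rintro h ⟨i, k, c⟩ x y hxy
      apply h i
      intro l
      by_cases hl : l = k
      · subst hl
        rw [Function.update_self, Function.update_self]
        exact hxy
      · rw [Function.update_of_ne hl, Function.update_of_ne hl]
    · intro h i x y hxy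
      have key : ∀ S : Finset (Fin (ar i)), θ (tgt i) (op i x) (op i (S.piecewise y x)) := by
        intro S
        induction S using Finset.induction_on with
        | empty =>
          rw [Finset.piecewise_empty]
        | insert a S ha ih =>
          refine (θ (tgt i)).trans' ih ?_
          rw [Finset.piecewise_insert]
          have h1 := h ⟨i, a, S.piecewise y x⟩ (x a) (y a) (hxy a)
          have h2 : Function.update (S.piecewise y x) a (x a) = S.piecewise y x := by
            rw [Function.update_eq_self_iff, Finset.piecewise_eq_of_notMem _ _ _ ha]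
          simp only at h1
          rw [h2] at h1
          exact h1
      have := key Finset.univ
      rwa [Finset.piecewise_univ] at this
  exact { toEquiv := Equiv.subtypeEquivRight h, map_rel_iff' := Iff.rfl }

/-- finite many-sorted algebras -/
theorem sorted (P : Type) [Finite P] (A : P → Type) [∀ p, Finite (A p)] [∀ p, Nonempty (A p)]
    (m : ℕ) (ar : Fin m → ℕ) (src : ∀ i, Fin (ar i) → P) (tgt : Fin m → P)
    (op : ∀ i : Fin m, (∀ k, A (src i k)) → A (tgt i)) :
    Representable {θ : ∀ p, Setoid (A p) // SCompat A ar src tgt op θ} :=
  sortedJ P A (Fin m) ar src tgt op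

end Vale.Agent.P183
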