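import Vale.Agent.P183.Main

set_option autoImplicit false

namespace Vale.Agent.P183

universe u v

namespace PowX

variable {P : Type} [PartialOrder P] {m : ℕ}

/-- operation symbols of the power -/
abbrev J (P : Type) [PartialOrder P] (m : ℕ) : Type := (Fin m × P) ⊕ {pq : P × P // pq.1 ≤ pq.2}

def arJ (ar : Fin m → ℕ) : J P m → ℕ
  | Sum.inl x => ar x.1
  | Sum.inr _ => 1

def srcJ (ar : Fin m → ℕ) : ∀ j : J P m, Fin (arJ ar j) → P
  | Sum.inl x => fun _ => x.2
  | Sum.inr x => fun _ => x.1.1

def tgtJ : J P m → P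
  | Sum.inl x => x.2
  | Sum.inr x => x.1.2

def opJ {A : Type} (ar : Fin m → ℕ) (op : ∀ i : Fin m, (Fin (ar i) → A) → A) :
    ∀ j : J P m, (Fin (arJ ar j) → A) → A
  | Sum.inl x => fun y => op x.1 y
  | Sum.inr _ => fun y => y (0 : Fin 1)

end PowX

open PowX in
theorem pow (L : Type u) [PartialOrder L] (P : Type) [PartialOrder P] [Finite P]
    (hL : Representable L) : Representable (P →o L) := by
  obtain ⟨A, _, _, m, ar, op, ⟨e⟩⟩ := hL
  refine Representable.congr ?_ (sortedJ P (fun _ => A) (J P m) (arJ ar) (srcJ ar) tgtJ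
    (opJ ar op))
  refine { toFun := fun φ => ⟨fun p => (e (φ p)).1, ?_⟩,
           invFun := fun θ => ⟨fun p => e.symm ⟨θ.1 p, ?_⟩, ?_⟩,
           left_inv := ?_, right_inv := ?_, map_rel_iff' := ?_ }
  · rintro (x | x) y z h
    · exact (e (φ x.2)).2 x.1 y z h
    · have h1 : (e (φ x.1.1)).1 (y (0 : Fin 1)) (z (0 : Fin 1)) := h (0 : Fin 1)
      have h2 : e (φ x.1.1) ≤ e (φ x.1.2) := e.monotone (φ.monotone x.2)
      exact h2 h1
  · intro i x y h
    exact θ.2 (Sum.inl (i, p)) x y h
  · intro p q hpq
    apply e.symm.monotone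
    change θ.1 p ≤ θ.1 q
    intro x y hxy
    exact θ.2 (Sum.inr ⟨(p, q), hpq⟩) (fun _ => x) (fun _ => y) (fun _ => hxy)
  · intro φ
    ext p
    exact e.symm_apply_apply (φ p)
  · intro θ
    apply Subtype.ext
    funext p
    exact congrArg Subtype.val (e.apply_symm_apply _)
  · intro φ ψ
    constructor
    · intro h p
      exact e.le_iff_le.1 (h p)
    · intro h p
      exact e.monotone (h p)

/-- principal filters -/
theorem filter (M : Type u) [PartialOrder M] (a : M) (hM : Representable M) :
    Representable {x : M // a ≤ x} := by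
  obtain ⟨A, _, _, m, ar, op, ⟨e⟩⟩ := hM
  let r : Setoid A := (e a).1
  have hr : Compat ar op r := (e a).2
  let opQ : ∀ i : Fin m, (Fin (ar i) → Quotient r) → Quotient r :=
    fun i x => Quotient.mk r (op i fun k => (x k).out)
  let C := Setoid.correspondence r
  have hC : ∀ (φ : {s : Setoid A // r ≤ s}) (x y : A),
      C φ (Quotient.mk r x) (Quotient.mk r y) ↔ φ.1 x y := fun φ x y => Iff.rfl
  have hout : ∀ x : Quotient r, Quotient.mk r x.out = x := fun x => Quotient.out_eq x
  have hcomp : ∀ φ : {s : Setoid A // r ≤ s}, Compat ar op φ.1 ↔ Compat ar opQ (C φ) := by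
    intro φ
    constructor
    · intro h i x y hxy
      change C φ (Quotient.mk r _) (Quotient.mk r _)
      rw [hC]
      apply h i
      intro k
      have := hxy k
      rw [← hout (x k), ← hout (y k), hC] at this
      exact this
    · intro h i x y hxy
      have h1 := h i (fun k => Quotient.mk r (x k)) (fun k => Quotient.mk r (y k))
        (fun k => (hC φ _ _).2 (hxy k))
      change C φ (Quotient.mk r _) (Quotient.mk r _) at h1
      rw [hC] at h1
      have h2 : ∀ z : Fin (ar i) → A, φ.1 (op i z)
          (op i fun k => (Quotient.mk r (z k)).out) := by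
        intro z
        apply φ.2
        apply hr i
        intro k
        exact r.symm' (Quotient.exact (hout (Quotient.mk r (z k))))
      exact φ.1.trans' (h2 x) (φ.1.trans' h1 (φ.1.symm' (h2 y)))
  refine ⟨Quotient r, inferInstance, ⟨Quotient.mk r (Classical.arbitrary A)⟩, m, ar, opQ, ⟨?_⟩⟩
  refine { toFun := fun x => ⟨C ⟨(e x.1).1, e.monotone x.2⟩, ?_⟩,
           invFun := fun ψ => ⟨e.symm ⟨(C.symm ψ.1).1, ?_⟩, ?_⟩,
           left_inv := ?_, right_inv := ?_, map_rel_iff' := ?_ }
  · exact (hcomp _).1 (e x.1).2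
  · rw [hcomp, C.apply_symm_apply]
    exact ψ.2
  · rw [e.le_symm_apply]
    exact (C.symm ψ.1).2
  · intro x
    apply Subtype.ext
    simp
  · intro ψ
    apply Subtype.ext
    simp
  · intro x y
    change C _ ≤ C _ ↔ _
    rw [C.le_iff_le]
    exact e.le_iff_le

theorem unpow (L : Type u) [Lattice L] [BoundedOrder L] (P : Type) [PartialOrder P] [Finite P]
    [Nonempty P] (h : Representable (P →o L)) : Representable L := by
  classical
  obtain ⟨p, _, hp⟩ := (wellFounded_lt (α := P)).has_min Set.univ Set.univ_nonempty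
  have hmin : ∀ q, q ≤ p → q = p := by
    intro q hq
    by_contra hne
    exact hp q (Set.mem_univ q) (lt_of_le_of_ne hq hne)
  let g : L → (P →o L) := fun l => ⟨fun q => if q = p then l else ⊤, by
    intro q q' hqq
    change (if q = p then l else ⊤) ≤ (if q' = p then l else ⊤)
    by_cases h1 : q' = p
    · have h2 : q = p := hmin q (h1 ▸ hqq)
      rw [if_pos h1, if_pos h2]
    · rw [if_neg h1]
      exact le_top⟩
  have hg : ∀ l q, g l q = if q = p then l else ⊤ := fun _ _ => rfl
  refine Representable.congr ?_ (filter (P →o L) (g ⊥) h)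
  refine { toFun := fun l => ⟨g l, ?_⟩, invFun := fun x => x.1 p,
           left_inv := ?_, right_inv := ?_, map_rel_iff' := ?_ }
  · intro q
    change g ⊥ q ≤ g l q
    rw [hg, hg]
    split_ifs
    · exact bot_le
    · exact le_rfl
  · intro l
    change g l p = l
    rw [hg, if_pos rfl]
  · rintro ⟨x, hx⟩
    apply Subtype.ext
    ext q
    change g (x p) q = x q
    rw [hg]
    split_ifs with hq
    · rw [hq]
    · have h1 : g ⊥ q ≤ x q := hx q
      rw [hg, if_neg hq] at h1
      exact (top_le_iff.1 h1).symm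
  · intro l l'
    constructor
    · intro h1
      have h2 : g l p ≤ g l' p := h1 p
      rw [hg, hg, if_pos rfl, if_pos rfl] at h2
      exact h2
    · intro h1 q
      change g l q ≤ g l' q
      rw [hg, hg]
      split_ifs
      · exact h1
      · exact le_rfl

end Vale.Agent.P183
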