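import Vale.Agent.P183.Pow

set_option autoImplicit false

namespace Vale.Agent.P183

universe u v

/-- Tuples `x = (x s p)` with `x s p ∈ L s` (`p ∈ Q s`, `s ∈ S`) which satisfy the inequalities
`x s p ≤ x s q` for `(p, q) ∈ E s` and the conditions `x s p ≤ b or a ≤ x t q` for
`(s, p, t, q, b, a) ∈ R`, ordered componentwise. -/
abbrev Sol {S : Type} (L : S → Type u) [∀ s, PartialOrder (L s)] (Q : S → Type)
    (E : ∀ s, Q s → Q s → Prop) (R : ∀ (s : S) (_ : Q s) (t : S) (_ : Q t), L s → L t → Prop) :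
    Type u :=
  {x : ∀ s, Q s → L s // (∀ s p q, E s p q → x s p ≤ x s q) ∧
    ∀ s p t q b a, R s p t q b a → x s p ≤ b ∨ a ≤ x t q}

namespace SolX

variable {S : Type} {Q : S → Type} {A : S → Type} {m : S → ℕ}

abbrev I (Q : S → Type) (A : S → Type) (m : S → ℕ) (E : ∀ s, Q s → Q s → Prop)
    (R' : ∀ (p q : Σ s, Q s), (A p.1 → Bool) → A q.1 → A q.1 → Prop) : Type :=
  (Σ p : (Σ s, Q s), Fin (m p.1)) ⊕ ({x : Σ s, Q s × Q s // E x.1 x.2.1 x.2.2} ⊕
    {x : Σ p : (Σ s, Q s), Σ q : (Σ s, Q s), (A p.1 → Bool) × A q.1 × A q.1 //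
      R' x.1 x.2.1 x.2.2.1 x.2.2.2.1 x.2.2.2.2})

variable {E : ∀ s, Q s → Q s → Prop}
  {R' : ∀ (p q : Σ s, Q s), (A p.1 → Bool) → A q.1 → A q.1 → Prop}

def arI (ar : ∀ s, Fin (m s) → ℕ) : I Q A m E R' → ℕ
  | Sum.inl x => ar x.1.1 x.2
  | Sum.inr (Sum.inl _) => 1
  | Sum.inr (Sum.inr _) => 1

def srcI (ar : ∀ s, Fin (m s) → ℕ) : ∀ i : I Q A m E R', Fin (arI ar i) → Σ s, Q s
  | Sum.inl x => fun _ => x.1
  | Sum.inr (Sum.inl x) => fun _ => ⟨x.1.1, x.1.2.1⟩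
  | Sum.inr (Sum.inr x) => fun _ => x.1.1

def tgtI : I Q A m E R' → Σ s, Q s
  | Sum.inl x => x.1
  | Sum.inr (Sum.inl x) => ⟨x.1.1, x.1.2.2⟩
  | Sum.inr (Sum.inr x) => x.1.2.1

def opI (ar : ∀ s, Fin (m s) → ℕ) (op : ∀ s i, (Fin (ar s i) → A s) → A s) :
    ∀ i : I Q A m E R', (∀ k, A (srcI ar i k).1) → A (tgtI i).1
  | Sum.inl x => fun y => op x.1.1 x.2 y
  | Sum.inr (Sum.inl _) => fun y => y (0 : Fin 1)
  | Sum.inr (Sum.inr x) => fun y => bif x.1.2.2.1 (y (0 : Fin 1)) then x.1.2.2.2.1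
      else x.1.2.2.2.2

end SolX

open SolX in
theorem solAux (S : Type) [Finite S] (Q : S → Type) [∀ s, Finite (Q s)] (A : S → Type)
    [∀ s, Finite (A s)] [∀ s, Nonempty (A s)] (m : S → ℕ) (ar : ∀ s, Fin (m s) → ℕ)
    (op : ∀ s i, (Fin (ar s i) → A s) → A s) (E : ∀ s, Q s → Q s → Prop)
    (R' : ∀ (p q : Σ s, Q s), (A p.1 → Bool) → A q.1 → A q.1 → Prop) :
    Representable {θ : ∀ p : (Σ s, Q s), Setoid (A p.1) //
      (∀ p, Compat (ar p.1) (op p.1) (θ p)) ∧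
      (∀ s p q, E s p q → θ ⟨s, p⟩ ≤ θ ⟨s, q⟩) ∧
      (∀ p q h u v, R' p q h u v → ∀ z z', θ p z z' →
        θ q (bif h z then u else v) (bif h z' then u else v))} := by
  refine Representable.congr ?_ (sortedJ (Σ s, Q s) (fun p => A p.1) (I Q A m E R') (arI ar)
    (srcI ar) tgtI (opI ar op))
  refine { toEquiv := Equiv.subtypeEquivRight fun θ => ?_, map_rel_iff' := Iff.rfl }
  constructor
  · rintro ⟨h1, h2, h3⟩ (x | x | x) y z h
    · exact h1 x.1 x.2 y z h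
    · exact h2 x.1.1 x.1.2.1 x.1.2.2 x.2 (h (0 : Fin 1))
    · exact h3 _ _ _ _ _ x.2 _ _ (h (0 : Fin 1))
  · intro h
    refine ⟨?_, ?_, ?_⟩
    · intro p i x y hxy
      exact h (Sum.inl ⟨p, i⟩) x y hxy
    · intro s p q hE x y hxy
      exact h (Sum.inr (Sum.inl ⟨⟨s, p, q⟩, hE⟩)) (fun _ => x) (fun _ => y) (fun _ => hxy)
    · intro p q g u w hR z z' hz
      exact h (Sum.inr (Sum.inr ⟨⟨p, q, g, u, w⟩, hR⟩)) (fun _ => z) (fun _ => z') (fun _ => hz)

/-- the general closure theorem -/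
theorem sol (S : Type) [Finite S] (L : S → Type u) [∀ s, PartialOrder (L s)]
    (hL : ∀ s, Representable (L s)) (Q : S → Type) [∀ s, Finite (Q s)]
    (E : ∀ s, Q s → Q s → Prop) (R : ∀ (s : S) (_ : Q s) (t : S) (_ : Q t), L s → L t → Prop) :
    Representable (Sol L Q E R) := by
  classical
  choose A hfin hne m ar op he using hL
  haveI := hfin
  haveI := hne
  let e : ∀ s, L s ≃o {θ : Setoid (A s) // Compat (ar s) (op s) θ} := fun s => (he s).some
  let R' : ∀ (p q : Σ s, Q s), (A p.1 → Bool) → A q.1 → A q.1 → Prop := fun p q h u w =>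
    ∃ b a, R p.1 p.2 q.1 q.2 b a ∧ (∀ z z', (e p.1 b).1 z z' → h z = h z') ∧ (e q.1 a).1 u w
  refine Representable.congr ?_ (solAux S Q A m ar op E R')
  refine { toFun := fun x => ⟨fun p => (e p.1 (x.1 p.1 p.2)).1, ?_, ?_, ?_⟩,
           invFun := fun θ => ⟨fun s p => (e s).symm ⟨θ.1 ⟨s, p⟩, θ.2.1 ⟨s, p⟩⟩, ?_, ?_⟩,
           left_inv := ?_, right_inv := ?_, map_rel_iff' := ?_ }
  · intro p
    exact (e p.1 (x.1 p.1 p.2)).2
  · intro s p q hE
    exact (e s).monotone (x.2.1 s p q hE)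
  · rintro p q h u w ⟨b, a, hR, hb, ha⟩ z z' hz
    rcases x.2.2 _ _ _ _ _ _ hR with h1 | h1
    · have h2 : (e p.1 (x.1 p.1 p.2)) ≤ e p.1 b := (e p.1).monotone h1
      rw [hb z z' (h2 hz)]
    · have h2 : e q.1 a ≤ (e q.1 (x.1 q.1 q.2)) := (e q.1).monotone h1
      have h3 : (e q.1 (x.1 q.1 q.2)).1 u w := h2 ha
      cases h z <;> cases h z'
      · exact Setoid.refl' _ _
      · exact Setoid.symm' _ h3
      · exact h3
      · exact Setoid.refl' _ _
  · intro s p q hE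
    apply (e s).symm.monotone
    exact θ.2.2.1 s p q hE
  · intro s p t q b a hR
    by_cases h : (e s).symm ⟨θ.1 ⟨s, p⟩, θ.2.1 ⟨s, p⟩⟩ ≤ b
    · exact Or.inl h
    · right
      rw [(e s).symm_apply_le] at h
      have h' : ¬ (θ.1 ⟨s, p⟩ ≤ (e s b).1) := h
      have h2 : ∃ z z', θ.1 ⟨s, p⟩ z z' ∧ ¬ (e s b).1 z z' := by
        by_contra hcon
        apply h'
        intro z z' hz
        by_contra hb
        exact hcon ⟨z, z', hz, hb⟩
      obtain ⟨z, z', hz, hb⟩ := h2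
      rw [(e t).le_symm_apply]
      intro u w huw
      have h3 := θ.2.2.2 ⟨s, p⟩ ⟨t, q⟩ (fun y => decide ((e s b).1 z y)) u w
        ⟨b, a, hR, fun y y' hy => by
          have : (e s b).1 z y ↔ (e s b).1 z y' :=
            ⟨fun h => Setoid.trans' _ h hy, fun h => Setoid.trans' _ h (Setoid.symm' _ hy)⟩
          simp only [this], huw⟩ z z' hz
      have h4 : (decide ((e s b).1 z z)) = true := decide_eq_true (Setoid.refl' _ z)
      have h5 : (decide ((e s b).1 z z')) = false := decide_eq_false hb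
      simp only [h4, h5, cond_true, cond_false] at h3
      exact h3
  · intro x
    apply Subtype.ext
    funext s p
    exact (e s).symm_apply_apply _
  · intro θ
    apply Subtype.ext
    funext p
    exact congrArg Subtype.val ((e p.1).apply_symm_apply _)
  · intro x y
    constructor
    · intro h s p
      exact (e s).le_iff_le.1 (h ⟨s, p⟩)
    · intro h p
      exact (e p.1).monotone (h p.1 p.2)

end Vale.Agent.P183
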